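import Vale.Agent.P220.R2.H57.Basic

/-!
Linear systems with three blocks, with parameters
-/

open Set Filter Topology
open scoped ContDiff

namespace Vale.Agent.P220.R2.H252

open Vale.Agent.P220.R2.H57

section Form

variable {P F G : Type} [NormedAddCommGroup P] [NormedSpace ℝ P] [FiniteDimensional ℝ P]
  [NormedAddCommGroup F] [NormedSpace ℝ F] [FiniteDimensional ℝ F]
  [NormedAddCommGroup G] [NormedSpace ℝ G] [FiniteDimensional ℝ G]

/-- Linear systems with parameters and a projection. -/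
theorem linSolve2 {S : Set P} (hS : IsClosed S) {R : P → F →L[ℝ] F} (hR : ContDiff ℝ ∞ R)
    {C : P → F →L[ℝ] G} (hC : ContDiff ℝ ∞ C) {y : P → G} (hy : ContDiff ℝ ∞ y)
    (hinj : ∀ s ∈ S, ∀ w, R s w = w → C s w = 0 → w = 0)
    (hsol : ∀ s ∈ S, ∃ w, R s w = w ∧ C s w = y s) :
    ∃ X : P → F, ContDiff ℝ ∞ X ∧ ∀ s ∈ S, R s (X s) = X s ∧ C s (X s) = y s := by
  let A : P → F →L[ℝ] (F × G) := fun x => (ContinuousLinearMap.id ℝ F - R x).prod (C x)
  let y' : P → F × G := fun x => (0, y x)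
  have hAapp : ∀ (x : P) (w : F), A x w = (w - R x w, C x w) := fun x w => rfl
  have hA : ContDiff ℝ ∞ A := by
    have h1 : ContDiff ℝ ∞ (fun x => (ContinuousLinearMap.inl ℝ F G).comp
        (ContinuousLinearMap.id ℝ F - R x)) :=
      contDiff_const.clm_comp (contDiff_const.sub hR)
    have h2 : ContDiff ℝ ∞ (fun x => (ContinuousLinearMap.inr ℝ F G).comp (C x)) :=
      contDiff_const.clm_comp hC
    have h3 : A = fun x => (ContinuousLinearMap.inl ℝ F G).comp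
        (ContinuousLinearMap.id ℝ F - R x) + (ContinuousLinearMap.inr ℝ F G).comp (C x) := by
      funext x
      refine ContinuousLinearMap.ext fun w => ?_
      rw [hAapp]
      simp
    rw [h3]
    exact h1.add h2
  have hy' : ContDiff ℝ ∞ y' := contDiff_const.prodMk hy
  obtain ⟨X, hX, hX1⟩ := linSolve hS hA hy' (by
    intro s hs w hw
    rw [hAapp] at hw
    have h1 : w - R s w = 0 := congrArg Prod.fst hw
    have h2 : C s w = 0 := congrArg Prod.snd hw
    exact hinj s hs w (sub_eq_zero.1 h1).symm h2) (by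
    intro s hs
    obtain ⟨w, hw, hw1⟩ := hsol s hs
    refine ⟨w, ?_⟩
    rw [hAapp, hw, sub_self, hw1])
  refine ⟨X, hX, fun s hs => ?_⟩
  have h1 := hX1 s hs
  rw [hAapp] at h1
  have h2 : X s - R s (X s) = 0 := congrArg Prod.fst h1
  exact ⟨(sub_eq_zero.1 h2).symm, congrArg Prod.snd h1⟩

variable {E : Type} [NormedAddCommGroup E] [InnerProductSpace ℝ E] [FiniteDimensional ℝ E]

/-- A family of vectors given by their inner products. -/
theorem linSolve3 {S : Set P} (hS : IsClosed S) {R : P → E →L[ℝ] E} (hR : ContDiff ℝ ∞ R)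
    {M : P → F →L[ℝ] E} (hM : ContDiff ℝ ∞ M) {N : P → E} (hN : ContDiff ℝ ∞ N)
    {y : P → F →L[ℝ] ℝ} (hy : ContDiff ℝ ∞ y) {y' : P → ℝ} (hy' : ContDiff ℝ ∞ y')
    (hinj : ∀ s ∈ S, ∀ p, R s p = p → (∀ v, (inner ℝ p (M s v) : ℝ) = 0) →
      (inner ℝ p (N s) : ℝ) = 0 → p = 0)
    (hsol : ∀ s ∈ S, ∃ p, R s p = p ∧ (∀ v, (inner ℝ p (M s v) : ℝ) = y s v) ∧
      (inner ℝ p (N s) : ℝ) = y' s) :
    ∃ X : P → E, ContDiff ℝ ∞ X ∧ ∀ s ∈ S, R s (X s) = X s ∧
      (∀ v, (inner ℝ (X s) (M s v) : ℝ) = y s v) ∧ (inner ℝ (X s) (N s) : ℝ) = y' s := by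
  let C1 : P → E →L[ℝ] (F →L[ℝ] ℝ) := fun x =>
    ((ContinuousLinearMap.compL ℝ F E ℝ).flip (M x)).comp (innerSL ℝ)
  let C2 : P → E →L[ℝ] ℝ := fun x => innerSL ℝ (N x)
  have h0 : ContDiff ℝ ∞ (fun x => (ContinuousLinearMap.compL ℝ F E ℝ).flip (M x)) :=
    contDiff_const.clm_apply hM
  have hC1 : ContDiff ℝ ∞ C1 := h0.clm_comp (contDiff_const (c := innerSL ℝ (E := E)))
  have hC2 : ContDiff ℝ ∞ C2 := (innerSL ℝ (E := E)).contDiff.comp hN
  let C : P → E →L[ℝ] ((F →L[ℝ] ℝ) × ℝ) := fun x => (C1 x).prod (C2 x)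
  have hCapp : ∀ (x : P) (p : E), C x p = ((innerSL ℝ p).comp (M x), (inner ℝ (N x) p : ℝ)) :=
    fun x p => rfl
  have hC : ContDiff ℝ ∞ C := by
    have h1 : ContDiff ℝ ∞ (fun x => (ContinuousLinearMap.inl ℝ (F →L[ℝ] ℝ) ℝ).comp (C1 x)) :=
      contDiff_const.clm_comp hC1
    have h2 : ContDiff ℝ ∞ (fun x => (ContinuousLinearMap.inr ℝ (F →L[ℝ] ℝ) ℝ).comp (C2 x)) :=
      contDiff_const.clm_comp hC2
    have h3 : C = fun x => (ContinuousLinearMap.inl ℝ (F →L[ℝ] ℝ) ℝ).comp (C1 x) +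
        (ContinuousLinearMap.inr ℝ (F →L[ℝ] ℝ) ℝ).comp (C2 x) := by
      funext x
      refine ContinuousLinearMap.ext fun w => ?_
      refine Prod.ext ?_ ?_
      · change C1 x w = C1 x w + 0
        rw [add_zero]
      · change C2 x w = 0 + C2 x w
        rw [zero_add]
    rw [h3]
    exact h1.add h2
  obtain ⟨X, hX, hX1⟩ := linSolve2 hS hR hC (y := fun x => (y x, y' x)) (hy.prodMk hy') (by
    intro s hs w hw h
    rw [hCapp] at h
    have h1 : (innerSL ℝ w).comp (M s) = 0 := congrArg Prod.fst h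
    have h2 : (inner ℝ (N s) w : ℝ) = 0 := congrArg Prod.snd h
    refine hinj s hs w hw (fun v => ?_) (by rw [real_inner_comm]; exact h2)
    exact congrArg (fun C => C v) h1) (by
    intro s hs
    obtain ⟨w, hw, hw1, hw2⟩ := hsol s hs
    refine ⟨w, hw, ?_⟩
    rw [hCapp]
    refine Prod.ext ?_ ?_
    · exact ContinuousLinearMap.ext fun v => hw1 v
    · change (inner ℝ (N s) w : ℝ) = y' s
      rw [real_inner_comm, hw2])
  refine ⟨X, hX, fun s hs => ?_⟩
  obtain ⟨h1, h2⟩ := hX1 s hs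
  rw [hCapp] at h2
  have h3 : (innerSL ℝ (X s)).comp (M s) = y s := congrArg Prod.fst h2
  have h4 : (inner ℝ (N s) (X s) : ℝ) = y' s := congrArg Prod.snd h2
  refine ⟨h1, fun v => ?_, by rw [real_inner_comm]; exact h4⟩
  exact congrArg (fun C => C v) h3

/-- Riesz representation on a subspace. -/
theorem riesz (T : Submodule ℝ E) (ψ : T →ₗ[ℝ] ℝ) :
    ∃ p ∈ T, ∀ (u : E) (hu : u ∈ T), (inner ℝ p u : ℝ) = ψ ⟨u, hu⟩ := by
  have : CompleteSpace T := FiniteDimensional.complete ℝ T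
  set α : T →L[ℝ] ℝ := LinearMap.toContinuousLinearMap ψ with hα
  refine ⟨((InnerProductSpace.toDual ℝ T).symm α : T), SetLike.coe_mem _, fun u hu => ?_⟩
  have h1 := InnerProductSpace.toDual_symm_apply (𝕜 := ℝ) (x := (⟨u, hu⟩ : T)) (y := α)
  rw [Submodule.coe_inner] at h1
  exact h1

end Form

end Vale.Agent.P220.R2.H252
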